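import Vale.Agent.P125.Assemble

namespace Vale.Agent.Results.P125.MarkovTypeSuperreflexive

open Vale.Agent.P125

/-- **Nontrivial Markov type implies superreflexivity.** Every real Banach space with Markov
type `p` for some `p > 1` admits an equivalent uniformly convex norm. -/
theorem result (X : Type*) [NormedAddCommGroup X] [NormedSpace ℝ X] [CompleteSpace X]
    (h : ∃ p : ℝ, 1 < p ∧ HasMarkovType X p) : IsSuperreflexive X :=
  superreflexive_final X h

end Vale.Agent.Results.P125.MarkovTypeSuperreflexive
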