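import Vale.Agent.P125.Assemble2

namespace Vale.Agent.Results.P125.MarkovTypeUniformlySmooth

open Vale.Agent.P125

/-- **Nontrivial Markov type implies uniformly smooth and uniformly convex renormability.** Every
real Banach space with Markov type `p` for some `p > 1` admits an equivalent uniformly smooth
norm, and also an equivalent uniformly convex norm (so it is superreflexive). -/
theorem result (X : Type*) [NormedAddCommGroup X] [NormedSpace ℝ X] [CompleteSpace X]
    (h : ∃ p : ℝ, 1 < p ∧ HasMarkovType X p) :
    (∃ N : Seminorm ℝ X, IsEquivalentNorm N ∧ IsUniformlySmooth N) ∧ IsSuperreflexive X :=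
  ⟨smooth_final X h, superreflexive_final X h⟩

end Vale.Agent.Results.P125.MarkovTypeUniformlySmooth
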